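import Vale.Agent.P253.R2.H380.Stein.Main

/-!
P253: Riemann domains `π : X → E` such that `-log (bdist π)` is plurisubharmonic have strictly
plurisubharmonic exhaustion functions.
-/

open scoped Manifold ContDiff Topology
open Set Metric Filter IsManifold

set_option linter.unusedSectionVars false

noncomputable section

namespace Vale.Agent.P253.R2.H380.Stein

open Vale.Agent.P253.R2.H922

variable {E : Type*} [NormedAddCommGroup E] [NormedSpace ℂ E]
  {X : Type*} [TopologicalSpace X] [T2Space X] [ChartedSpace E X] [IsManifold 𝓘(ℂ, E) 1 X]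
  {π : X → E}

/-- the sheets defined by `min (bdist π) 1` -/
def sheets (hπ : IsLocalHomeomorph π) (hb : ∀ x, BddAbove (radii π x)) : Sheets π where
  hπ := hπ
  δ := fun x => min (bdist π x) 1
  cont := (continuous_bdist hπ hb).min continuous_const
  pos := fun x => lt_min (bdist_pos hπ (hb x)) one_pos
  le_one := fun _ => min_le_right _ _
  mem := fun x => radii_mono (exists_sec hπ (hb x)) (min_le_left _ _)

theorem isContPsh_max_zero {u : X → ℝ} (hu : IsContPsh E u) : IsContPsh E fun x => max (u x) 0 := by
  refine ⟨hu.1.max continuous_const, fun f c r hr hf hf' => ?_⟩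
  have i1 : CircleIntegrable (fun z => u (f z)) c r :=
    (hu.1.comp_continuousOn (hf.mono sphere_subset_closedBall)).circleIntegrable hr.le
  have i2 : CircleIntegrable (fun z => max (u (f z)) 0) c r :=
    ((hu.1.max continuous_const).comp_continuousOn
      (hf.mono sphere_subset_closedBall)).circleIntegrable hr.le
  refine max_le ((hu.2 f c r hr hf hf').trans ?_) ?_
  · exact Real.circleAverage_mono i1 i2 fun z _ => le_max_left _ _
  · exact Real.circleAverage_nonneg_of_nonneg fun z _ => le_max_right _ _

theorem isContPsh_sheets (hπ : IsLocalHomeomorph π) (hb : ∀ x, BddAbove (radii π x))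
    (hpsh : IsContPsh E fun x => -Real.log (bdist π x)) :
    IsContPsh E fun x => -Real.log ((sheets hπ hb).δ x) := by
  have h1 := isContPsh_max_zero hpsh
  refine (congrArg (IsContPsh E) (funext fun x => ?_)).mp h1
  have hp := bdist_pos hπ (hb x)
  change max (-Real.log (bdist π x)) 0 = -Real.log (min (bdist π x) 1)
  rcases le_total (bdist π x) 1 with h | h
  · rw [min_eq_left h, max_eq_left]
    have := Real.log_nonpos hp.le h
    linarith
  · rw [min_eq_right h, Real.log_one, neg_zero, max_eq_right]
    have := Real.log_nonneg h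
    linarith

variable [FiniteDimensional ℂ E]

/-- **Oka's theorem for Riemann domains, exhaustion form**: if `-log (bdist π)` is continuous and
plurisubharmonic then `X` has a continuous strictly plurisubharmonic exhaustion function. -/
theorem hasSpshExhaustion_of_separable [TopologicalSpace.SeparableSpace X]
    (hd : IsLocalDiffeomorph 𝓘(ℂ, E) 𝓘(ℂ, E) 1 π) (hb : ∀ x, BddAbove (radii π x))
    (hpsh : IsContPsh E fun x => -Real.log (bdist π x)) : HasSpshExhaustion E X := by
  rcases isEmpty_or_nonempty X with he | hne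
  · exact ⟨fun _ => 0, continuous_of_const fun _ => isEmptyElim ‹X›, fun t => by
      rw [eq_empty_of_isEmpty {x : X | (0:ℝ) ≤ t}]; exact isCompact_empty, fun x => isEmptyElim x⟩
  · have hl := hd.isLocalHomeomorph
    exact (sheets hl hb).hasSpshExhaustion hd (isContPsh_sheets hl hb hpsh)
      ((sheets hl hb).reach_of_dense (TopologicalSpace.denseRange_denseSeq X))

/-- the connected case -/
theorem hasSpshExhaustion_of_connected [ConnectedSpace X]
    (hd : IsLocalDiffeomorph 𝓘(ℂ, E) 𝓘(ℂ, E) 1 π) (hb : ∀ x, BddAbove (radii π x))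
    (hpsh : IsContPsh E fun x => -Real.log (bdist π x)) : HasSpshExhaustion E X := by
  have hl := hd.isLocalHomeomorph
  obtain ⟨x₀⟩ := (inferInstance : Nonempty X)
  exact (sheets hl hb).hasSpshExhaustion hd (isContPsh_sheets hl hb hpsh)
    ((sheets hl hb).reach_of_connected fun _ => x₀)

/-- domains biholomorphic to `E` -/
theorem hasSpshExhaustion_of_bijective (hd : IsLocalDiffeomorph 𝓘(ℂ, E) 𝓘(ℂ, E) 1 π)
    (hbij : Function.Bijective π) : HasSpshExhaustion E X := by
  have hprop : ProperSpace E := FiniteDimensional.proper ℂ E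
  have hl := hd.isLocalHomeomorph
  obtain ⟨n, L, c, hc0, hc1, hc⟩ := exists_coord E
  have hcont : Continuous fun x => ‖L (π x)‖ ^ 2 := (L.continuous.comp hl.continuous).norm.pow 2
  refine ⟨fun x => ‖L (π x)‖ ^ 2, hcont, fun t => ?_, fun x => ?_⟩
  · have hoe := hl.isOpenEmbedding_of_injective hbij.injective
    have h1 : IsCompact (π ⁻¹' (closedBall (0:E) (Real.sqrt (max t 0) / c))) :=
      hoe.isInducing.isCompact_preimage' (isCompact_closedBall _ _)
        (by rw [hbij.surjective.range_eq]; exact subset_univ _)
    refine h1.of_isClosed_subset (isClosed_le hcont continuous_const) ?_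
    intro y hy
    have h2 : ‖L (π y)‖ ^ 2 ≤ max t 0 := le_trans hy (le_max_left _ _)
    rw [mem_preimage, mem_closedBall, dist_zero_right, le_div_iff₀ hc0, mul_comm]
    exact (hc _).trans (Real.le_sqrt_of_sq_le h2)
  · obtain ⟨Ψ, hx, hΨ⟩ := hd x
    refine ⟨Ψ.toOpenPartialHomeomorph, partialDiffeomorph_mem Ψ, hx, n, L, 1, one_pos, ?_⟩
    intro f c r hr hf hf' hfe
    have hΨ' : ∀ m ∈ Ψ.source, Ψ.toOpenPartialHomeomorph m = π m := fun m hm => (hΨ hm).symm
    have e2 : Real.circleAverage (fun z => ‖L (π (f z))‖ ^ 2 -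
        1 * ‖L (Ψ.toOpenPartialHomeomorph (f z))‖ ^ 2) c r = Real.circleAverage (fun _ => 0) c r := by
      apply Real.circleAverage_congr_sphere
      intro z hz
      rw [abs_of_pos hr] at hz
      simp only
      rw [hΨ' _ (hfe z (sphere_subset_closedBall hz))]
      ring
    rw [e2, hΨ' _ (hfe c (mem_closedBall_self hr.le)), Real.circleAverage_const]
    simp

/-- connected Riemann domains for which `-log (bdist π)` is plurisubharmonic if it is finite -/
theorem hasSpshExhaustion [ConnectedSpace X] (hd : IsLocalDiffeomorph 𝓘(ℂ, E) 𝓘(ℂ, E) 1 π)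
    (hpsh : (∀ x, BddAbove (radii π x)) → IsContPsh E fun x => -Real.log (bdist π x)) :
    HasSpshExhaustion E X := by
  by_cases hb : ∀ x, BddAbove (radii π x)
  · exact hasSpshExhaustion_of_connected hd hb (hpsh hb)
  · push Not at hb
    obtain ⟨x, hx⟩ := hb
    exact hasSpshExhaustion_of_bijective hd (bijective_of_not_bddAbove hd.isLocalHomeomorph hx)

/-- Riemann domains which satisfy the key proposition have strictly plurisubharmonic exhaustion
functions -/
theorem _root_.Vale.Agent.P253.R2.H922.KeyProp.hasSpshExhaustion [ConnectedSpace X]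
    (hKP : KeyProp E X) (hd : IsLocalDiffeomorph 𝓘(ℂ, E) 𝓘(ℂ, E) 1 π) : HasSpshExhaustion E X :=
  Stein.hasSpshExhaustion hd fun hb => hKP.psh hd hb

end Vale.Agent.P253.R2.H380.Stein
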