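import Vale.Agent.P253.R2.H922.Sec

/-!
P253: Riemann domains `π : X → E` with a radius function `δ`: the sections over the balls
`B(π x, δ x)` depend continuously on `x`; compact exhaustion by chains of balls.
-/

open Topology
open Set Metric Filter

set_option linter.unusedSectionVars false

noncomputable section

namespace Vale.Agent.P253.R2.H380.Stein

open Vale.Agent.P253.R2.H922

/-- a local homeomorphism `π : X → E` with a continuous function `0 < δ ≤ 1` such that there are
sections of `π` over the balls `B(π x, δ x)` with value `x` at `π x` -/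
structure Sheets {E : Type*} [NormedAddCommGroup E] [NormedSpace ℝ E] {X : Type*}
    [TopologicalSpace X] (π : X → E) where
  hπ : IsLocalHomeomorph π
  δ : X → ℝ
  cont : Continuous δ
  pos : ∀ x, 0 < δ x
  le_one : ∀ x, δ x ≤ 1
  mem : ∀ x, δ x ∈ radii π x

namespace Sheets

variable {E : Type*} [NormedAddCommGroup E] [NormedSpace ℝ E]
  {X : Type*} [TopologicalSpace X] [T2Space X] {π : X → E} (S : Sheets π)

/-- the section over the ball `B(π x, δ x)` -/
def sec (x : X) : E → X := (S.mem x).choose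

theorem secOn (x : X) : SecOn π (ball (π x) (S.δ x)) (S.sec x) := (S.mem x).choose_spec.1

theorem sec_self (x : X) : S.sec x (π x) = x := (S.mem x).choose_spec.2

/-- the ball of radius `r` around `x` -/
def B (x : X) (r : ℝ) : Set X := S.sec x '' ball (π x) r

theorem mem_B_self {x : X} {r : ℝ} (hr : 0 < r) : x ∈ S.B x r :=
  ⟨π x, mem_ball_self hr, S.sec_self x⟩

theorem dist_lt_of_mem {x y : X} {r : ℝ} (hr : r ≤ S.δ x) (hy : y ∈ S.B x r) :
    dist (π y) (π x) < r := by
  obtain ⟨w, hw, rfl⟩ := hy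
  rw [(S.secOn x).2 w (ball_subset_ball hr hw)]
  exact hw

/-- the sections at nearby points agree -/
theorem agree (x' : X) : ∀ᶠ x in 𝓝 x',
    EqOn (S.sec x) (S.sec x') (ball (π x) (S.δ x) ∩ ball (π x') (S.δ x')) := by
  have h1 := sec_eventually S.hπ (S.pos x') (S.secOn x') (S.sec_self x')
  have h2 : ∀ᶠ x in 𝓝 x', π x ∈ ball (π x') (S.δ x') :=
    S.hπ.continuous.continuousAt.eventually (isOpen_ball.mem_nhds (mem_ball_self (S.pos x')))
  filter_upwards [h1, h2] with x hx1 hx2
  exact SecOn.eqOn S.hπ.isLocallyInjective ((convex_ball _ _).inter (convex_ball _ _)).isPreconnected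
    ((S.secOn x).mono inter_subset_left) ((S.secOn x').mono inter_subset_right)
    (x := π x) ⟨mem_ball_self (S.pos x), hx2⟩ (by rw [S.sec_self, hx1])

theorem isOpen_dom : IsOpen {p : X × E | dist p.2 (π p.1) < S.δ p.1} :=
  isOpen_lt (continuous_snd.dist (S.hπ.continuous.comp continuous_fst)) (S.cont.comp continuous_fst)

/-- joint continuity of the sections -/
theorem continuousOn_sec :
    ContinuousOn (fun p : X × E => S.sec p.1 p.2) {p | dist p.2 (π p.1) < S.δ p.1} := by
  rintro ⟨x', w'⟩ hp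
  apply ContinuousAt.continuousWithinAt
  have hw : w' ∈ ball (π x') (S.δ x') := hp
  have h1 : ContinuousAt (fun p : X × E => S.sec x' p.2) (x', w') := by
    have h2 : ContinuousAt (S.sec x') w' := (S.secOn x').1.continuousAt (isOpen_ball.mem_nhds hw)
    exact ContinuousAt.comp (f := fun p : X × E => p.2) (g := S.sec x') (x := (x', w')) h2
      continuous_snd.continuousAt
  refine h1.congr ?_
  have h3 : ∀ᶠ p : X × E in 𝓝 (x', w'),
      EqOn (S.sec p.1) (S.sec x') (ball (π p.1) (S.δ p.1) ∩ ball (π x') (S.δ x')) :=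
    (continuous_fst.tendsto (x', w')).eventually (S.agree x')
  have h4 : ∀ᶠ p : X × E in 𝓝 (x', w'), p.2 ∈ ball (π x') (S.δ x') :=
    (continuous_snd.tendsto (x', w')).eventually (isOpen_ball.mem_nhds hw)
  have h5 : ∀ᶠ p : X × E in 𝓝 (x', w'), dist p.2 (π p.1) < S.δ p.1 := S.isOpen_dom.mem_nhds hp
  filter_upwards [h3, h4, h5] with p hp1 hp2 hp3
  exact (hp1 ⟨hp3, hp2⟩).symm

/-- all points at distance at most `δ / 4` from the points of `K` -/
def step (K : Set X) : Set X :=
  (fun p : X × E => S.sec p.1 (π p.1 + S.δ p.1 • p.2)) '' (K ×ˢ closedBall (0:E) (1/4))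

theorem isCompact_step [ProperSpace E] {K : Set X} (hK : IsCompact K) : IsCompact (S.step K) := by
  refine (hK.prod (isCompact_closedBall (0:E) (1/4))).image_of_continuousOn ?_
  have h1 : ContinuousOn (fun p : X × E => ((p.1, π p.1 + S.δ p.1 • p.2) : X × E))
      (K ×ˢ closedBall (0:E) (1/4)) := by
    apply Continuous.continuousOn
    have h2 := S.hπ.continuous
    have h3 := S.cont
    fun_prop
  refine S.continuousOn_sec.comp h1 ?_
  rintro ⟨x, w⟩ ⟨-, hw⟩
  have hw' : ‖w‖ ≤ 1 / 4 := by simpa using hw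
  change dist (π x + S.δ x • w) (π x) < S.δ x
  rw [dist_eq_norm, add_sub_cancel_left, norm_smul, Real.norm_of_nonneg (S.pos x).le]
  have := S.pos x
  nlinarith

theorem subset_step (K : Set X) : K ⊆ S.step K := by
  intro x hx
  refine ⟨(x, 0), ⟨hx, by simp⟩, ?_⟩
  simp [S.sec_self]

theorem B_subset_step {K : Set X} {x : X} (hx : x ∈ K) : S.B x (S.δ x / 4) ⊆ S.step K := by
  rintro _ ⟨w, hw, rfl⟩
  have h0 := S.pos x
  refine ⟨(x, (S.δ x)⁻¹ • (w - π x)), ⟨hx, ?_⟩, ?_⟩
  · rw [mem_ball, dist_eq_norm] at hw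
    rw [mem_closedBall, dist_zero_right, norm_smul, norm_inv, Real.norm_of_nonneg h0.le,
      inv_mul_le_iff₀ h0]
    linarith
  · simp only [smul_inv_smul₀ h0.ne']
    rw [add_sub_cancel]

/-- the chain exhaustion with seeds `p` -/
def C (p : ℕ → X) : ℕ → Set X
  | 0 => {p 0}
  | k + 1 => S.step (C p k) ∪ {p (k + 1)}

theorem isCompact_C [ProperSpace E] (p : ℕ → X) (k : ℕ) : IsCompact (S.C p k) := by
  induction k with
  | zero => exact isCompact_singleton
  | succ k ih => exact (S.isCompact_step ih).union isCompact_singleton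

theorem C_mono (p : ℕ → X) : Monotone (S.C p) :=
  monotone_nat_of_le_succ fun _ => (S.subset_step _).trans subset_union_left

theorem seed_mem (p : ℕ → X) (k : ℕ) : p k ∈ S.C p k := by
  cases k with
  | zero => exact rfl
  | succ k => exact Or.inr rfl

theorem B_subset_C (p : ℕ → X) {k : ℕ} {x : X} (hx : x ∈ S.C p k) :
    S.B x (S.δ x / 4) ⊆ S.C p (k + 1) :=
  (S.B_subset_step hx).trans subset_union_left

/-- the point `x` is in the ball of `y` for `y` near `x` -/
theorem eventually_mem_B (x : X) : ∀ᶠ y in 𝓝 x, x ∈ S.B y (S.δ y / 4) := by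
  have h1 := S.agree x
  have h2 : ∀ᶠ y in 𝓝 x, dist (π x) (π y) < S.δ y / 4 := by
    have h3 : Continuous fun y => dist (π x) (π y) := continuous_const.dist S.hπ.continuous
    have h4 : Continuous fun y => S.δ y / 4 := S.cont.div_const _
    apply h3.continuousAt.eventually_lt h4.continuousAt
    rw [dist_self]
    have := S.pos x
    positivity
  filter_upwards [h1, h2] with y hy1 hy2
  have h5 : S.δ y / 4 < S.δ y := by have := S.pos y; linarith
  refine ⟨π x, hy2, ?_⟩
  rw [hy1 ⟨hy2.trans h5, mem_ball_self (S.pos x)⟩, S.sec_self]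

/-- in a connected space all points are reached from one point -/
theorem reach_of_connected [PreconnectedSpace X] (p : ℕ → X) (x : X) : ∃ k, x ∈ S.C p k := by
  have hopen : IsOpen (⋃ k, S.C p k) := by
    rw [isOpen_iff_mem_nhds]
    intro x hx
    obtain ⟨k, hk⟩ := mem_iUnion.1 hx
    have h1 := sec_eventually S.hπ (S.pos x) (S.secOn x) (S.sec_self x)
    have h2 : ∀ᶠ y in 𝓝 x, π y ∈ ball (π x) (S.δ x / 4) :=
      S.hπ.continuous.continuousAt.eventually
        (isOpen_ball.mem_nhds (mem_ball_self (by have := S.pos x; positivity)))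
    filter_upwards [h1, h2] with y hy1 hy2
    exact mem_iUnion.2 ⟨k + 1, S.B_subset_C p hk ⟨π y, hy2, hy1⟩⟩
  have hclosed : IsClosed (⋃ k, S.C p k) := by
    rw [isClosed_iff_frequently]
    intro x hx
    obtain ⟨y, hy1, hy2⟩ := (hx.and_eventually (S.eventually_mem_B x)).exists
    obtain ⟨k, hk⟩ := mem_iUnion.1 hy1
    exact mem_iUnion.2 ⟨k + 1, S.B_subset_C p hk hy2⟩
  have h1 : (⋃ k, S.C p k) = univ :=
    IsClopen.eq_univ ⟨hclosed, hopen⟩ ⟨p 0, mem_iUnion.2 ⟨0, rfl⟩⟩
  exact mem_iUnion.1 (h1 ▸ mem_univ x)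

/-- all points are reached from a dense sequence -/
theorem reach_of_dense {p : ℕ → X} (hp : DenseRange p) (x : X) : ∃ k, x ∈ S.C p k := by
  have h1 : ∃ᶠ y in 𝓝 x, y ∈ range p := mem_closure_iff_frequently.1 (hp x)
  obtain ⟨y, ⟨k, rfl⟩, hy⟩ := (h1.and_eventually (S.eventually_mem_B x)).exists
  exact ⟨k + 1, S.B_subset_C p (S.seed_mem p k) hy⟩

/-- the comparison of balls around nearby points -/
theorem eventually_B (x' : X) : ∀ᶠ x in 𝓝 x', x ∈ S.B x' (3 * S.δ x' / 16) ∧
    S.B x (S.δ x / 8) ⊆ S.B x' (3 * S.δ x' / 16) ∧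
    S.B x' (3 * S.δ x' / 16) ⊆ S.B x (S.δ x / 4) := by
  have h0 := S.pos x'
  have h1 := S.agree x'
  have h2 : ∀ᶠ x in 𝓝 x', dist (π x) (π x') < S.δ x' / 64 :=
    S.hπ.continuous.continuousAt.eventually (Metric.ball_mem_nhds _ (by positivity))
  have h3 : ∀ᶠ x in 𝓝 x', |S.δ x - S.δ x'| < S.δ x' / 64 :=
    S.cont.continuousAt.eventually (Metric.ball_mem_nhds _ (by positivity))
  have h4 := sec_eventually S.hπ (S.pos x') (S.secOn x') (S.sec_self x')
  filter_upwards [h1, h2, h3, h4] with x hx1 hx2 hx3 hx4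
  rw [abs_lt] at hx3
  have h5 : dist (π x') (π x) < S.δ x' / 64 := by rwa [dist_comm]
  refine ⟨⟨π x, by rw [mem_ball]; linarith, hx4⟩, ?_, ?_⟩
  · rintro _ ⟨w, hw, rfl⟩
    rw [mem_ball] at hw
    have h6 := dist_triangle w (π x) (π x')
    refine ⟨w, by rw [mem_ball]; linarith, (hx1 ⟨?_, ?_⟩).symm⟩
    · rw [mem_ball]; linarith
    · rw [mem_ball]; linarith
  · rintro _ ⟨w, hw, rfl⟩
    rw [mem_ball] at hw
    have h6 := dist_triangle w (π x') (π x)
    refine ⟨w, by rw [mem_ball]; linarith, hx1 ⟨?_, ?_⟩⟩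
    · rw [mem_ball]; linarith
    · rw [mem_ball]; linarith

end Sheets

end Vale.Agent.P253.R2.H380.Stein
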