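import Vale.Agent.P253.R2.H380.Stein.Loc
import Vale.Agent.P253.R2.H380.Stein.Sheet

/-!
P253: pseudoconvex Riemann domains (possibly with infinitely many sheets) have continuous strictly
plurisubharmonic exhaustion functions. The exhaustion function is the supremum over `y` near `x` of
`N y + K * exp (ψ x + 2 Re ⟨L π y, L π x⟩ - ‖L π y‖ ^ 2)`, `N` a chain counting function.
-/

open scoped Manifold ContDiff Topology
open Set Metric Filter IsManifold

set_option linter.unusedSectionVars false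

noncomputable section

namespace Vale.Agent.P253.R2.H380.Stein

open Vale.Agent.P253.R2.H922

namespace Sheets

variable {E : Type*} [NormedAddCommGroup E] [NormedSpace ℂ E] [FiniteDimensional ℂ E]
  {X : Type*} [TopologicalSpace X] [T2Space X] {π : X → E} (S : Sheets π)
  {n : ℕ} (L : E ≃L[ℂ] EuclideanSpace ℂ (Fin n))

/-- the exponent -/
def ex (y x : X) : ℝ :=
  2 * (-Real.log (S.δ x)) + 2 * (inner ℂ (L (π y)) (L (π x))).re - ‖L (π y)‖ ^ 2

theorem ex_eq (y x : X) : S.ex L y x =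
    2 * (-Real.log (S.δ x)) + ‖L (π x)‖ ^ 2 - ‖L (π x) - L (π y)‖ ^ 2 := by
  have h1 := norm_sub_sq (𝕜 := ℂ) (L (π y)) (L (π x))
  have h2 : RCLike.re (inner ℂ (L (π y)) (L (π x))) = (inner ℂ (L (π y)) (L (π x))).re := rfl
  rw [h2] at h1
  rw [norm_sub_rev] at h1
  unfold ex
  linarith

/-- the basic functions; `y ↦ N y` is the counting function -/
def g (N : X → ℕ) (K : ℝ) (y x : X) : ℝ := N y + K * Real.exp (S.ex L y x)

/-- the exhaustion function -/
def u (N : X → ℕ) (K : ℝ) (x : X) : ℝ := sSup ((fun y => S.g L N K y x) '' S.B x (S.δ x / 4))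

variable {N : X → ℕ} {K c : ℝ}

theorem g_le (hN : ∀ x, ∀ y ∈ S.B x (S.δ x / 4), N y ≤ N x + 1) (hK : 0 ≤ K) {x y : X}
    (hy : y ∈ S.B x (S.δ x / 4)) : S.g L N K y x ≤ S.g L N K x x + 1 := by
  have h1 : (N y : ℝ) ≤ N x + 1 := by exact_mod_cast hN x y hy
  have h2 : S.ex L y x ≤ S.ex L x x := by
    rw [ex_eq, ex_eq, sub_self, norm_zero]
    nlinarith [sq_nonneg ‖L (π x) - L (π y)‖]
  have h3 : K * Real.exp (S.ex L y x) ≤ K * Real.exp (S.ex L x x) := by gcongr
  unfold g
  linarith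

theorem bddAbove_img (hN : ∀ x, ∀ y ∈ S.B x (S.δ x / 4), N y ≤ N x + 1) (hK : 0 ≤ K) (x : X) :
    BddAbove ((fun y => S.g L N K y x) '' S.B x (S.δ x / 4)) := by
  refine ⟨S.g L N K x x + 1, ?_⟩
  rintro _ ⟨y, hy, rfl⟩
  exact S.g_le L hN hK hy

theorem g_le_u (hN : ∀ x, ∀ y ∈ S.B x (S.δ x / 4), N y ≤ N x + 1) (hK : 0 ≤ K) {x y : X}
    (hy : y ∈ S.B x (S.δ x / 4)) : S.g L N K y x ≤ S.u L N K x :=
  le_csSup (S.bddAbove_img L hN hK x) ⟨y, hy, rfl⟩

theorem exp_neg_le {t : ℝ} (h0 : 0 ≤ t) (h1 : t ≤ 1) : Real.exp (-t) ≤ 1 - t / 2 := by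
  have h2 := Real.add_one_le_exp t
  have h3 : Real.exp (-t) * Real.exp t = 1 := by rw [← Real.exp_add]; simp
  have h4 := Real.exp_pos (-t)
  have h5 : Real.exp (-t) * (1 + t) ≤ 1 := by nlinarith
  nlinarith

/-- the points far from the centre do not matter -/
theorem g_drop (hN : ∀ x, ∀ y ∈ S.B x (S.δ x / 4), N y ≤ N x + 1) (hc0 : 0 < c) (hc1 : c ≤ 1)
    (hc : ∀ v : E, c * ‖v‖ ≤ ‖L v‖) (hK : K = 128 / c ^ 2) {x y : X}
    (hy : y ∈ S.B x (S.δ x / 4)) (hd : S.δ x / 8 ≤ dist (π y) (π x)) :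
    S.g L N K y x ≤ S.g L N K x x := by
  have h0 := S.pos x
  have h01 := S.le_one x
  have h1 : (N y : ℝ) ≤ N x + 1 := by exact_mod_cast hN x y hy
  set t : ℝ := ‖L (π x) - L (π y)‖ ^ 2 with ht
  set t0 : ℝ := (c * (S.δ x / 8)) ^ 2 with ht0
  have h2 : t0 ≤ t := by
    have h3 : c * (S.δ x / 8) ≤ ‖L (π x) - L (π y)‖ := by
      rw [← map_sub]
      refine le_trans ?_ (hc _)
      rw [← dist_eq_norm, dist_comm]
      gcongr
    have h4 : 0 ≤ c * (S.δ x / 8) := by positivity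
    rw [ht0, ht]
    exact pow_le_pow_left₀ h4 h3 2
  have h3 : t0 ≤ 1 := by
    have h5 : c * (S.δ x / 8) ≤ 1 := by nlinarith
    have h6 : 0 ≤ c * (S.δ x / 8) := by positivity
    rw [ht0]
    nlinarith
  have h4 : S.ex L y x ≤ S.ex L x x + -t0 := by
    rw [ex_eq, ex_eq, sub_self, norm_zero]
    linarith
  have h5 : Real.exp (S.ex L y x) ≤ Real.exp (S.ex L x x) * (1 - t0 / 2) := by
    calc Real.exp (S.ex L y x) ≤ Real.exp (S.ex L x x + -t0) := Real.exp_le_exp.2 h4
      _ = Real.exp (S.ex L x x) * Real.exp (-t0) := Real.exp_add _ _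
      _ ≤ Real.exp (S.ex L x x) * (1 - t0 / 2) := by
          gcongr
          exact exp_neg_le (by positivity) h3
  have h6 : (S.δ x ^ 2)⁻¹ ≤ Real.exp (S.ex L x x) := by
    have h7 : Real.exp (2 * (-Real.log (S.δ x))) = (S.δ x ^ 2)⁻¹ := by
      rw [show 2 * (-Real.log (S.δ x)) = -(2 * Real.log (S.δ x)) by ring, Real.exp_neg, two_mul,
        Real.exp_add, Real.exp_log h0, sq]
    rw [← h7]
    apply Real.exp_le_exp.2
    rw [ex_eq, sub_self, norm_zero]
    nlinarith [sq_nonneg ‖L (π x)‖]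
  have h7 : 1 ≤ K * Real.exp (S.ex L x x) * (t0 / 2) := by
    have h8 : K * (S.δ x ^ 2)⁻¹ * (t0 / 2) = 1 := by
      rw [hK, ht0]
      field_simp
      norm_num
    rw [← h8]
    have hK0 : 0 ≤ K := by rw [hK]; positivity
    gcongr
  have hK0 : 0 ≤ K := by rw [hK]; positivity
  have h8 : K * Real.exp (S.ex L y x) ≤ K * (Real.exp (S.ex L x x) * (1 - t0 / 2)) := by gcongr
  unfold g
  nlinarith

theorem u_eq_local (hN : ∀ x, ∀ y ∈ S.B x (S.δ x / 4), N y ≤ N x + 1) (hc0 : 0 < c) (hc1 : c ≤ 1)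
    (hc : ∀ v : E, c * ‖v‖ ≤ ‖L v‖) (hK : K = 128 / c ^ 2) (x' : X) :
    ∀ᶠ x in 𝓝 x', S.u L N K x =
      sSup ((fun y => S.g L N K y x) '' S.B x' (3 * S.δ x' / 16)) ∧
      S.B x' (3 * S.δ x' / 16) ⊆ S.B x (S.δ x / 4) := by
  have hK0 : 0 ≤ K := by rw [hK]; positivity
  filter_upwards [S.eventually_B x'] with x ⟨h1, h2, h3⟩
  refine ⟨?_, h3⟩
  have hne : (S.B x' (3 * S.δ x' / 16)).Nonempty := ⟨x, h1⟩
  apply le_antisymm
  · have hne' : (S.B x (S.δ x / 4)).Nonempty := ⟨x, S.mem_B_self (by have := S.pos x; positivity)⟩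
    refine csSup_le (hne'.image _) ?_
    rintro _ ⟨y, hy, rfl⟩
    have hbd : BddAbove ((fun y => S.g L N K y x) '' S.B x' (3 * S.δ x' / 16)) :=
      (S.bddAbove_img L hN hK0 x).mono (image_mono h3)
    rcases lt_or_ge (dist (π y) (π x)) (S.δ x / 8) with h4 | h4
    · refine le_csSup hbd ⟨y, h2 ?_, rfl⟩
      obtain ⟨w, hw, rfl⟩ := hy
      refine ⟨w, ?_, rfl⟩
      rw [(S.secOn x).2 w (ball_subset_ball (by have := S.pos x; linarith) hw)] at h4
      exact h4
    · exact (S.g_drop L hN hc0 hc1 hc hK hy h4).trans (le_csSup hbd ⟨x, h1, rfl⟩)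
  · exact csSup_le_csSup (S.bddAbove_img L hN hK0 x) (hne.image _) (image_mono h3)

theorem continuous_ex (y : X) : Continuous fun x => S.ex L y x := by
  have h1 : Continuous fun x => Real.log (S.δ x) := S.cont.log fun x => (S.pos x).ne'
  have h2 : Continuous fun x => L (π x) := L.continuous.comp S.hπ.continuous
  have h3 : Continuous fun x => (inner ℂ (L (π y)) (L (π x))).re :=
    Complex.continuous_re.comp (continuous_const.inner h2)
  unfold ex
  exact ((continuous_const.mul h1.neg).add (continuous_const.mul h3)).sub continuous_const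

/-- the basic functions are equicontinuous -/
theorem equi (K : ℝ) (x' : X) {ε : ℝ} (hε : 0 < ε) : ∀ᶠ x in 𝓝 x',
    ∀ y ∈ S.B x' (3 * S.δ x' / 16), |S.g L N K y x - S.g L N K y x'| < ε := by
  have hprop : ProperSpace E := FiniteDimensional.proper ℂ E
  let F : X → E → ℝ := fun x w => K * Real.exp (2 * (-Real.log (S.δ x)) +
    2 * (inner ℂ (L w) (L (π x))).re - ‖L w‖ ^ 2)
  have hF : Continuous fun p : X × E => F p.1 p.2 := by
    have h1 : Continuous fun p : X × E => Real.log (S.δ p.1) :=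
      (S.cont.comp continuous_fst).log fun p => (S.pos p.1).ne'
    have h2 : Continuous fun p : X × E => L (π p.1) :=
      L.continuous.comp (S.hπ.continuous.comp continuous_fst)
    have h3 : Continuous fun p : X × E => L p.2 := L.continuous.comp continuous_snd
    have h4 : Continuous fun p : X × E => (inner ℂ (L p.2) (L (π p.1))).re :=
      Complex.continuous_re.comp (h3.inner h2)
    exact continuous_const.mul (Real.continuous_exp.comp
      (((continuous_const.mul h1.neg).add (continuous_const.mul h4)).sub (h3.norm.pow 2)))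
  have hcomp := (isCompact_closedBall (π x') (S.δ x')).eventually_forall_of_forall_eventually
    (x₀ := x') (P := fun x w => |F x w - F x' w| < ε) (fun w _ => by
      have h1 : Continuous fun p : X × E => |F p.1 p.2 - F x' p.2| := by
        have h2 : Continuous fun p : X × E => F x' p.2 :=
          hF.comp (continuous_const.prodMk continuous_snd)
        exact (hF.sub h2).abs
      apply h1.continuousAt.eventually_lt continuousAt_const
      simp [hε])
  filter_upwards [hcomp] with x hx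
  rintro _ ⟨w, hw, rfl⟩
  have h0 := S.pos x'
  have hw1 : w ∈ ball (π x') (S.δ x') := ball_subset_ball (by linarith) hw
  have h1 := hx w (ball_subset_closedBall hw1)
  have h2 : π (S.sec x' w) = w := (S.secOn x').2 w hw1
  have h3 : S.g L N K (S.sec x' w) x - S.g L N K (S.sec x' w) x' = F x w - F x' w := by
    simp only [g, ex, h2, F]
    ring
  rw [h3]
  exact h1

theorem continuous_u (hN : ∀ x, ∀ y ∈ S.B x (S.δ x / 4), N y ≤ N x + 1) (hc0 : 0 < c)
    (hc1 : c ≤ 1) (hc : ∀ v : E, c * ‖v‖ ≤ ‖L v‖) (hK : K = 128 / c ^ 2) :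
    Continuous (S.u L N K) := by
  have hK0 : 0 ≤ K := by rw [hK]; positivity
  rw [continuous_iff_continuousAt]
  intro x'
  have h0 := S.pos x'
  rw [Metric.continuousAt_iff']
  intro ε hε
  have hloc := S.u_eq_local L hN hc0 hc1 hc hK x'
  have hx' := hloc.self_of_nhds
  have hne : (S.B x' (3 * S.δ x' / 16)).Nonempty := ⟨x', S.mem_B_self (by positivity)⟩
  filter_upwards [hloc, S.equi L (N := N) K x' (half_pos hε)] with x hx1 hx2
  have hb : BddAbove ((fun y => S.g L N K y x) '' S.B x' (3 * S.δ x' / 16)) :=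
    (S.bddAbove_img L hN hK0 x).mono (image_mono hx1.2)
  have hb' : BddAbove ((fun y => S.g L N K y x') '' S.B x' (3 * S.δ x' / 16)) :=
    (S.bddAbove_img L hN hK0 x').mono (image_mono hx'.2)
  rw [Real.dist_eq, hx1.1, hx'.1]
  have e1 : sSup ((fun y => S.g L N K y x) '' S.B x' (3 * S.δ x' / 16)) ≤
      sSup ((fun y => S.g L N K y x') '' S.B x' (3 * S.δ x' / 16)) + ε / 2 := by
    refine csSup_le (hne.image _) ?_
    rintro _ ⟨y, hy, rfl⟩
    have h1 := (abs_lt.1 (hx2 y hy)).2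
    have h2 := le_csSup hb' ⟨y, hy, rfl⟩
    simp only at h2 ⊢
    linarith
  have e2 : sSup ((fun y => S.g L N K y x') '' S.B x' (3 * S.δ x' / 16)) ≤
      sSup ((fun y => S.g L N K y x) '' S.B x' (3 * S.δ x' / 16)) + ε / 2 := by
    refine csSup_le (hne.image _) ?_
    rintro _ ⟨y, hy, rfl⟩
    have h1 := (abs_lt.1 (hx2 y hy)).1
    have h2 := le_csSup hb ⟨y, hy, rfl⟩
    simp only at h2 ⊢
    linarith
  rw [abs_lt]
  constructor <;> linarith

end Sheets

end Vale.Agent.P253.R2.H380.Stein
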