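import Vale.Agent.P253.R2.H922.Dom

/-!
P253: plurisubharmonic functions on complex manifolds: the sub-mean value inequality is local;
exponentials; definition of Stein manifolds by strictly plurisubharmonic exhaustion functions.
-/

open scoped Manifold ContDiff Topology
open Set Metric Filter IsManifold

set_option linter.unusedSectionVars false

noncomputable section

namespace Vale.Agent.P253.R2.H380.Stein

open Vale.Agent.P253.R2.H922

/-- mean value property of the real part of a holomorphic function -/
theorem re_circleAverage {F : ℂ → ℂ} {c : ℂ} {r : ℝ} (hr : 0 < r)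
    (hF : ContinuousOn F (closedBall c r)) (hF' : DifferentiableOn ℂ F (ball c r)) :
    Real.circleAverage (fun z => (F z).re) c r = (F c).re := by
  have h1 : DiffContOnCl ℂ F (ball c |r|) := by
    rw [abs_of_pos hr]
    refine ⟨hF', ?_⟩
    rw [closure_ball c hr.ne']
    exact hF
  have h2 : CircleIntegrable F c r :=
    (hF.mono sphere_subset_closedBall).circleIntegrable hr.le
  have h3 := Complex.reCLM.circleAverage_comp_comm (f := F) (c := c) (R := r) h2
  rw [h1.circleAverage] at h3
  exact h3

/-- **The sub-mean value inequality is local.** -/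
theorem submean_of_local {u : ℂ → ℝ} {c : ℂ} {r : ℝ} (hr : 0 < r)
    (hu : ContinuousOn u (closedBall c r))
    (h : ∀ z0 ∈ ball c r, ∀ᶠ ρ in 𝓝[>] (0:ℝ), u z0 ≤ Real.circleAverage u z0 ρ) :
    u c ≤ Real.circleAverage u c r := by
  by_contra hcon
  push Not at hcon
  obtain ⟨p, h1, h2⟩ := exists_poly_majorant hr (hu.mono sphere_subset_closedBall) hcon
  obtain ⟨k, ε, z0, hε, hz0, hk0, hk⟩ := touch_of_majorant
    (u := fun z => ((u z : ℝ) : EReal)) (c := c) (r := r)
    (continuous_coe_real_ereal.comp_continuousOn hu).upperSemicontinuousOn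
    (fun z _ => EReal.coe_ne_top _) p (fun z hz => by exact_mod_cast (h1 z hz).le)
    (mem_ball_self hr) (by exact_mod_cast h2)
  have hk0' : u z0 = (k.eval z0).re := by exact_mod_cast hk0
  have hk' : ∀ z ∈ closedBall c r, u z ≤ (k.eval z).re - ε * ‖z - z0‖ ^ 2 := fun z hz => by
    exact_mod_cast hk z hz
  obtain ⟨ρ₀, hρ₀, hsub⟩ := Metric.isOpen_iff.1 isOpen_ball z0 hz0
  obtain ⟨ρ, hρ1, hρ2, hρ3⟩ := ((h z0 hz0).and
    ((eventually_lt_nhds hρ₀).filter_mono nhdsWithin_le_nhds |>.and self_mem_nhdsWithin)).exists
  have hρ : 0 < ρ := hρ3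
  have hcb : closedBall z0 ρ ⊆ closedBall c r :=
    (closedBall_subset_ball hρ2).trans (hsub.trans ball_subset_closedBall)
  have i1 : CircleIntegrable u z0 ρ :=
    (hu.mono (sphere_subset_closedBall.trans hcb)).circleIntegrable hρ.le
  have i2 : CircleIntegrable (fun z => (k.eval z).re) z0 ρ := by
    apply ContinuousOn.circleIntegrable hρ.le
    exact (Complex.continuous_re.comp k.continuous).continuousOn
  have h3 : Real.circleAverage u z0 ρ ≤
      Real.circleAverage (fun z => (k.eval z).re + -(ε * ρ ^ 2)) z0 ρ := by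
    refine Real.circleAverage_mono i1 (i2.add (circleIntegrable_const _ _ _)) fun z hz => ?_
    have hz' : z ∈ sphere z0 ρ := by rwa [abs_of_pos hρ] at hz
    have h4 := hk' z (hcb (sphere_subset_closedBall hz'))
    have h5 : ‖z - z0‖ = ρ := by
      rw [← dist_eq_norm]; exact hz'
    rw [h5] at h4
    linarith
  have h6 : Real.circleAverage (fun z => (k.eval z).re + -(ε * ρ ^ 2)) z0 ρ =
      (k.eval z0).re - ε * ρ ^ 2 := by
    rw [Real.circleAverage_fun_add i2 (circleIntegrable_const _ _ _), Real.circleAverage_const,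
      re_circleAverage hρ k.continuous.continuousOn k.differentiable.differentiableOn]
    ring
  have h7 : 0 < ε * ρ ^ 2 := by positivity
  linarith

/-- exponentials of functions with the sub-mean value property -/
theorem exp_submean {φ : ℂ → ℝ} {c : ℂ} {r : ℝ} (hr : 0 < r)
    (hφ : ContinuousOn φ (closedBall c r)) (h : φ c ≤ Real.circleAverage φ c r) :
    Real.exp (φ c) ≤ Real.circleAverage (fun z => Real.exp (φ z)) c r := by
  have i1 : CircleIntegrable φ c r := (hφ.mono sphere_subset_closedBall).circleIntegrable hr.le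
  have i2 : CircleIntegrable (fun z => Real.exp (φ z)) c r :=
    ((hφ.mono sphere_subset_closedBall).rexp).circleIntegrable hr.le
  have i3 : CircleIntegrable (fun z => Real.exp (φ c) * φ z) c r := i1.const_mul _
  have h1 : Real.circleAverage (fun z => Real.exp (φ c) * φ z +
      Real.exp (φ c) * (1 - φ c)) c r ≤ Real.circleAverage (fun z => Real.exp (φ z)) c r := by
    refine Real.circleAverage_mono (i3.add (circleIntegrable_const _ _ _)) i2 fun z _ => ?_
    have h2 : Real.exp (φ z) = Real.exp (φ c) * Real.exp (φ z - φ c) := by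
      rw [← Real.exp_add]; congr 1; ring
    have h3 := Real.add_one_le_exp (φ z - φ c)
    rw [h2]
    have h4 := Real.exp_pos (φ c)
    nlinarith
  have h2 : Real.circleAverage (fun z => Real.exp (φ c) * φ z +
      Real.exp (φ c) * (1 - φ c)) c r = Real.exp (φ c) * Real.circleAverage φ c r +
      Real.exp (φ c) * (1 - φ c) := by
    rw [Real.circleAverage_fun_add i3 (circleIntegrable_const _ _ _), Real.circleAverage_const]
    congr 1
    exact Real.circleAverage_fun_smul (a := Real.exp (φ c)) (f := φ)
  rw [h2] at h1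
  have h3 := Real.exp_pos (φ c)
  nlinarith

end Vale.Agent.P253.R2.H380.Stein
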