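import Vale.Agent.P253.R2.H380.Stein.Exh

/-!
P253: pseudoconvex Riemann domains are Stein (have continuous strictly plurisubharmonic exhaustion
functions); the case of `bdist`.
-/

open scoped Manifold ContDiff Topology
open Set Metric Filter IsManifold

set_option linter.unusedSectionVars false

noncomputable section

namespace Vale.Agent.P253.R2.H380.Stein

open Vale.Agent.P253.R2.H922

section defs

variable (E : Type*) [NormedAddCommGroup E] [NormedSpace ℂ E]
  (M : Type*) [TopologicalSpace M] [ChartedSpace E M]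

/-- `M` has a continuous strictly plurisubharmonic exhaustion function `v`: all sublevel sets are
compact, and near each point, in a holomorphic chart `e` composed with linear coordinates `L`,
`v - ε * ‖L ∘ e‖ ^ 2` satisfies the sub-mean value inequality along all holomorphic discs. -/
def HasSpshExhaustion : Prop :=
  ∃ v : M → ℝ, Continuous v ∧ (∀ t : ℝ, IsCompact {x | v x ≤ t}) ∧
    ∀ x : M, ∃ e ∈ maximalAtlas 𝓘(ℂ, E) 1 M, x ∈ e.source ∧
      ∃ (n : ℕ) (L : E ≃L[ℂ] EuclideanSpace ℂ (Fin n)) (ε : ℝ), 0 < ε ∧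
        ∀ (f : ℂ → M) (c : ℂ) (r : ℝ), 0 < r → ContinuousOn f (closedBall c r) →
          MDifferentiableOn 𝓘(ℂ, ℂ) 𝓘(ℂ, E) f (ball c r) →
          (∀ z ∈ closedBall c r, f z ∈ e.source) →
          v (f c) - ε * ‖L (e (f c))‖ ^ 2 ≤
            Real.circleAverage (fun z => v (f z) - ε * ‖L (e (f z))‖ ^ 2) c r

end defs

variable {E : Type*} [NormedAddCommGroup E] [NormedSpace ℂ E] [FiniteDimensional ℂ E]
  {X : Type*} [TopologicalSpace X] [T2Space X] [ChartedSpace E X] [IsManifold 𝓘(ℂ, E) 1 X]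
  {π : X → E}

theorem exists_coord (E : Type*) [NormedAddCommGroup E] [NormedSpace ℂ E]
    [FiniteDimensional ℂ E] : ∃ (n : ℕ) (L : E ≃L[ℂ] EuclideanSpace ℂ (Fin n)) (c : ℝ),
      0 < c ∧ c ≤ 1 ∧ ∀ v : E, c * ‖v‖ ≤ ‖L v‖ := by
  have L : E ≃L[ℂ] EuclideanSpace ℂ (Fin (Module.finrank ℂ E)) :=
    ContinuousLinearEquiv.ofFinrankEq (by simp)
  set C : ℝ := ‖(L.symm : EuclideanSpace ℂ (Fin (Module.finrank ℂ E)) →L[ℂ] E)‖ + 1 with hC
  have hC0 : 0 < C := by positivity
  refine ⟨_, L, C⁻¹, by positivity, ?_, fun v => ?_⟩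
  · apply inv_le_one_of_one_le₀
    have := norm_nonneg (L.symm : EuclideanSpace ℂ (Fin (Module.finrank ℂ E)) →L[ℂ] E)
    rw [hC]; linarith
  · rw [inv_mul_le_iff₀ hC0]
    have h1 := (L.symm : EuclideanSpace ℂ (Fin (Module.finrank ℂ E)) →L[ℂ] E).le_opNorm (L v)
    have h2 : (L.symm : EuclideanSpace ℂ (Fin (Module.finrank ℂ E)) →L[ℂ] E) (L v) = v :=
      L.symm_apply_apply v
    rw [h2] at h1
    refine h1.trans ?_
    gcongr
    rw [hC]; linarith

theorem differentiableOn_comp (hπ : IsLocalDiffeomorph 𝓘(ℂ, E) 𝓘(ℂ, E) 1 π) {f : ℂ → X} {s : Set ℂ}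
    (hf : MDifferentiableOn 𝓘(ℂ, ℂ) 𝓘(ℂ, E) f s) : DifferentiableOn ℂ (fun z => π (f z)) s := by
  have h1 : MDifferentiable 𝓘(ℂ, E) 𝓘(ℂ, E) π := hπ.mdifferentiable (by simp)
  have h2 : MDifferentiableOn 𝓘(ℂ, ℂ) 𝓘(ℂ, E) (π ∘ f) s := h1.comp_mdifferentiableOn hf
  exact h2.differentiableOn

namespace Sheets

variable (S : Sheets π) {n : ℕ} (L : E ≃L[ℂ] EuclideanSpace ℂ (Fin n)) {N : X → ℕ} {K c : ℝ}

theorem g_submean (hd : IsLocalDiffeomorph 𝓘(ℂ, E) 𝓘(ℂ, E) 1 π)
    (hψ : IsContPsh E fun x => -Real.log (S.δ x)) (hK : 0 ≤ K) (y : X) {f : ℂ → X} {a : ℂ} {r : ℝ}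
    (hr : 0 < r) (hf : ContinuousOn f (closedBall a r))
    (hf' : MDifferentiableOn 𝓘(ℂ, ℂ) 𝓘(ℂ, E) f (ball a r)) :
    S.g L N K y (f a) ≤ Real.circleAverage (fun z => S.g L N K y (f z)) a r := by
  have hdf := differentiableOn_comp hd hf'
  have hsp : sphere a r ⊆ closedBall a r := sphere_subset_closedBall
  -- the exponent
  have h1 : S.ex L y (f a) ≤ Real.circleAverage (fun z => S.ex L y (f z)) a r := by
    have c1 : ContinuousOn (fun z => -Real.log (S.δ (f z))) (closedBall a r) :=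
      hψ.1.comp_continuousOn hf
    have i1 : CircleIntegrable (fun z => -Real.log (S.δ (f z))) a r :=
      (c1.mono hsp).circleIntegrable hr.le
    let F : ℂ → ℂ := fun z => inner ℂ (L (π y)) (L (π (f z)))
    have hFc : ContinuousOn F (closedBall a r) := by
      have h2 : ContinuousOn (fun z => L (π (f z))) (closedBall a r) :=
        (L.continuous.comp S.hπ.continuous).comp_continuousOn hf
      exact continuousOn_const.inner h2
    have hFd : DifferentiableOn ℂ F (ball a r) := by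
      have h2 : DifferentiableOn ℂ (fun z => L (π (f z))) (ball a r) :=
        L.differentiable.comp_differentiableOn hdf
      exact (innerSL ℂ (L (π y))).differentiable.comp_differentiableOn h2
    have i2 : CircleIntegrable (fun z => (F z).re) a r :=
      ((Complex.continuous_re.comp_continuousOn hFc).mono hsp).circleIntegrable hr.le
    have e1 : (fun z => S.ex L y (f z)) = fun z => (2 * (-Real.log (S.δ (f z))) + 2 * (F z).re) +
        -‖L (π y)‖ ^ 2 := by
      funext z
      simp only [ex, F]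
      ring
    have i3 : CircleIntegrable (fun z => 2 * (-Real.log (S.δ (f z)))) a r := i1.const_mul 2
    have i4 : CircleIntegrable (fun z => 2 * (F z).re) a r := i2.const_mul 2
    have i5 : CircleIntegrable (fun z => 2 * (-Real.log (S.δ (f z))) + 2 * (F z).re) a r :=
      i3.add i4
    rw [e1, Real.circleAverage_fun_add i5 (circleIntegrable_const _ _ _),
      Real.circleAverage_fun_add i3 i4, Real.circleAverage_const]
    have e2 : Real.circleAverage (fun z => 2 * (-Real.log (S.δ (f z)))) a r =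
        2 * Real.circleAverage (fun z => -Real.log (S.δ (f z))) a r :=
      Real.circleAverage_fun_smul (a := (2:ℝ)) (f := fun z => -Real.log (S.δ (f z)))
    have e3 : Real.circleAverage (fun z => 2 * (F z).re) a r = 2 * (F a).re := by
      rw [← re_circleAverage hr hFc hFd]
      exact Real.circleAverage_fun_smul (a := (2:ℝ)) (f := fun z => (F z).re)
    rw [e2, e3]
    have h2 := hψ.2 f a r hr hf hf'
    simp only [ex, F]
    linarith
  have hec : ContinuousOn (fun z => S.ex L y (f z)) (closedBall a r) :=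
    (S.continuous_ex L y).comp_continuousOn hf
  have h2 := exp_submean (φ := fun z => S.ex L y (f z)) hr hec h1
  have i6 : CircleIntegrable (fun z => Real.exp (S.ex L y (f z))) a r :=
    ((hec.mono hsp).rexp).circleIntegrable hr.le
  have i7 : CircleIntegrable (fun z => K * Real.exp (S.ex L y (f z))) a r := i6.const_mul K
  have e4 : (fun z => S.g L N K y (f z)) =
      fun z => (N y : ℝ) + K * Real.exp (S.ex L y (f z)) := rfl
  rw [e4, Real.circleAverage_fun_add (circleIntegrable_const _ _ _) i7, Real.circleAverage_const]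
  have e5 : Real.circleAverage (fun z => K * Real.exp (S.ex L y (f z))) a r =
      K * Real.circleAverage (fun z => Real.exp (S.ex L y (f z))) a r :=
    Real.circleAverage_fun_smul (a := K) (f := fun z => Real.exp (S.ex L y (f z)))
  rw [e5]
  unfold g
  gcongr

/-- the exhaustion function is plurisubharmonic -/
theorem isContPsh_u (hd : IsLocalDiffeomorph 𝓘(ℂ, E) 𝓘(ℂ, E) 1 π)
    (hψ : IsContPsh E fun x => -Real.log (S.δ x))
    (hN : ∀ x, ∀ y ∈ S.B x (S.δ x / 4), N y ≤ N x + 1) (hc0 : 0 < c)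
    (hc1 : c ≤ 1) (hc : ∀ v : E, c * ‖v‖ ≤ ‖L v‖) (hK : K = 128 / c ^ 2) :
    IsContPsh E (S.u L N K) := by
  have hK0 : 0 ≤ K := by rw [hK]; positivity
  have hcont := S.continuous_u L hN hc0 hc1 hc hK
  refine ⟨hcont, fun f a r hr hf hf' => ?_⟩
  refine submean_of_local (u := fun z => S.u L N K (f z)) hr (hcont.comp_continuousOn hf) ?_
  intro z0 hz0
  set x' := f z0 with hx'
  have h0 := S.pos x'
  have hfc : ContinuousAt f z0 :=
    hf.continuousAt (mem_of_superset (isOpen_ball.mem_nhds hz0) ball_subset_closedBall)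
  have h1 := hfc.eventually (S.u_eq_local L hN hc0 hc1 hc hK x')
  have h2 : ∀ᶠ z in 𝓝 z0, z ∈ ball a r := isOpen_ball.mem_nhds hz0
  obtain ⟨ρ₀, hρ₀, h3⟩ := Metric.nhds_basis_closedBall.eventually_iff.1 (h1.and h2)
  filter_upwards [self_mem_nhdsWithin, (eventually_lt_nhds hρ₀).filter_mono nhdsWithin_le_nhds]
    with ρ hρ1 hρ2
  have hρ : 0 < ρ := hρ1
  have hsub : closedBall z0 ρ ⊆ closedBall z0 ρ₀ := closedBall_subset_closedBall hρ2.le
  have hfρ : ContinuousOn f (closedBall z0 ρ) :=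
    hf.mono fun z hz => ball_subset_closedBall (h3 (hsub hz)).2
  have hfρ' : MDifferentiableOn 𝓘(ℂ, ℂ) 𝓘(ℂ, E) f (ball z0 ρ) :=
    hf'.mono fun z hz => (h3 (hsub (ball_subset_closedBall hz))).2
  have hx0 := (h3 (mem_closedBall_self hρ₀.le)).1
  have hne : (S.B x' (3 * S.δ x' / 16)).Nonempty := ⟨x', S.mem_B_self (by positivity)⟩
  rw [← hx'] at hx0
  rw [hx0.1]
  refine csSup_le (hne.image _) ?_
  rintro _ ⟨y, hy, rfl⟩
  refine (S.g_submean L (N := N) (K := K) hd hψ hK0 y hρ hfρ hfρ').trans ?_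
  refine Real.circleAverage_mono ?_ ?_ ?_
  · apply ContinuousOn.circleIntegrable hρ.le
    have h4 : Continuous fun x => S.g L N K y x :=
      continuous_const.add (continuous_const.mul (Real.continuous_exp.comp (S.continuous_ex L y)))
    exact h4.comp_continuousOn (hfρ.mono sphere_subset_closedBall)
  · apply ContinuousOn.circleIntegrable hρ.le
    exact hcont.comp_continuousOn (hfρ.mono sphere_subset_closedBall)
  · intro z hz
    rw [abs_of_pos hρ] at hz
    have h4 := (h3 (hsub (sphere_subset_closedBall hz))).1.2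
    exact S.g_le_u L hN hK0 (h4 hy)

/-- **Exhaustion functions of pseudoconvex Riemann domains.** -/
theorem exists_exhaustion (hd : IsLocalDiffeomorph 𝓘(ℂ, E) 𝓘(ℂ, E) 1 π)
    (hψ : IsContPsh E fun x => -Real.log (S.δ x)) {p : ℕ → X} (hp : ∀ x, ∃ k, x ∈ S.C p k) :
    ∃ u : X → ℝ, IsContPsh E u ∧ (∀ x, 0 ≤ u x) ∧ ∀ t : ℝ, IsCompact {x | u x ≤ t} := by
  classical
  obtain ⟨n, L, c, hc0, hc1, hc⟩ := exists_coord E
  have hprop : ProperSpace E := FiniteDimensional.proper ℂ E
  let N : X → ℕ := fun x => Nat.find (hp x)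
  have hNle : ∀ x k, x ∈ S.C p k → N x ≤ k := fun x k h => Nat.find_min' (hp x) h
  have hNmem : ∀ x, x ∈ S.C p (N x) := fun x => Nat.find_spec (hp x)
  have hN : ∀ x, ∀ y ∈ S.B x (S.δ x / 4), N y ≤ N x + 1 := fun x y hy =>
    hNle y _ (S.B_subset_C p (hNmem x) hy)
  have hK0 : (0:ℝ) ≤ 128 / c ^ 2 := by positivity
  have hpsh := S.isContPsh_u L hd hψ hN hc0 hc1 hc rfl
  have hge : ∀ x, (N x : ℝ) ≤ S.u L N (128 / c ^ 2) x := fun x => by
    refine le_trans ?_ (S.g_le_u L hN hK0 (S.mem_B_self (x := x) (by have := S.pos x; positivity)))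
    unfold g
    have := Real.exp_pos (S.ex L x x)
    nlinarith
  refine ⟨S.u L N (128 / c ^ 2), hpsh, fun x => (Nat.cast_nonneg _).trans (hge x), fun t => ?_⟩
  refine (S.isCompact_C p ⌊t⌋₊).of_isClosed_subset (isClosed_le hpsh.1 continuous_const) ?_
  intro x hx
  have h1 : (N x : ℝ) ≤ t := (hge x).trans hx
  exact S.C_mono p (Nat.le_floor h1) (hNmem x)

/-- **Pseudoconvex Riemann domains are Stein.** -/
theorem hasSpshExhaustion (hd : IsLocalDiffeomorph 𝓘(ℂ, E) 𝓘(ℂ, E) 1 π)
    (hψ : IsContPsh E fun x => -Real.log (S.δ x)) {p : ℕ → X} (hp : ∀ x, ∃ k, x ∈ S.C p k) :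
    HasSpshExhaustion E X := by
  obtain ⟨u, h1, h2, h3⟩ := S.exists_exhaustion hd hψ hp
  obtain ⟨n, L, -⟩ := exists_coord E
  have hcont : Continuous fun x => u x + ‖L (π x)‖ ^ 2 :=
    h1.1.add ((L.continuous.comp S.hπ.continuous).norm.pow 2)
  refine ⟨fun x => u x + ‖L (π x)‖ ^ 2, hcont, fun t => ?_, fun x => ?_⟩
  · refine (h3 t).of_isClosed_subset (isClosed_le hcont continuous_const) ?_
    intro x hx
    have h4 : u x + ‖L (π x)‖ ^ 2 ≤ t := hx
    have h5 : 0 ≤ ‖L (π x)‖ ^ 2 := by positivity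
    exact (by linarith : u x ≤ t)
  · obtain ⟨Ψ, hx, hΨ⟩ := hd x
    refine ⟨Ψ.toOpenPartialHomeomorph, partialDiffeomorph_mem Ψ, hx, n, L, 1, one_pos, ?_⟩
    intro f c r hr hf hf' hfe
    have hΨ' : ∀ m ∈ Ψ.source, Ψ.toOpenPartialHomeomorph m = π m := fun m hm => (hΨ hm).symm
    have e1 : u (f c) + ‖L (π (f c))‖ ^ 2 -
        1 * ‖L (Ψ.toOpenPartialHomeomorph (f c))‖ ^ 2 = u (f c) := by
      rw [hΨ' _ (hfe c (mem_closedBall_self hr.le))]
      ring
    have e2 : Real.circleAverage (fun z => u (f z) + ‖L (π (f z))‖ ^ 2 -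
        1 * ‖L (Ψ.toOpenPartialHomeomorph (f z))‖ ^ 2) c r =
        Real.circleAverage (fun z => u (f z)) c r := by
      apply Real.circleAverage_congr_sphere
      intro z hz
      rw [abs_of_pos hr] at hz
      simp only
      rw [hΨ' _ (hfe z (sphere_subset_closedBall hz))]
      ring
    rw [e1, e2]
    exact h1.2 f c r hr hf hf'

end Sheets

end Vale.Agent.P253.R2.H380.Stein
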